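import Vale.Agent.Lib.P043.PQ.Final

/-- Every finite tile of `ℤ^d` of cardinality `p * q`, with `p` and `q` distinct primes, admits a
tiling that is invariant under the finite index subgroup `M • ℤ^d` for some positive `M`. -/
theorem Vale.Agent.Results.P043.B_pq.result (d p q : ℕ) (hp : p.Prime) (hq : q.Prime) (hne : p ≠ q)
    (F : Finset (Fin d → ℤ)) (hF : F.card = p * q)
    (htile : ∃ A : Set (Fin d → ℤ), ∀ g : Fin d → ℤ,
      ∃! x : (Fin d → ℤ) × (Fin d → ℤ), x.1 ∈ A ∧ x.2 ∈ F ∧ x.1 + x.2 = g) :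
    ∃ A' : Set (Fin d → ℤ),
      (∀ g : Fin d → ℤ, ∃! x : (Fin d → ℤ) × (Fin d → ℤ), x.1 ∈ A' ∧ x.2 ∈ F ∧ x.1 + x.2 = g) ∧
      ∃ M : ℕ, 0 < M ∧ ∀ g h : Fin d → ℤ, g + M • h ∈ A' ↔ g ∈ A' := by
  obtain ⟨A, hA⟩ := htile
  have hconv : ∀ (B : Set (Fin d → ℤ)),
      (∀ g : Fin d → ℤ, ∃! x : (Fin d → ℤ) × (Fin d → ℤ), x.1 ∈ B ∧ x.2 ∈ F ∧ x.1 + x.2 = g) ↔
      (∀ g : Fin d → ℤ, ∃! f, f ∈ F ∧ g - f ∈ B) := by
    intro B
    refine forall_congr' fun g => ?_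
    constructor
    · rintro ⟨⟨a, f⟩, ⟨ha, hf, hg⟩, huniq⟩
      refine ⟨f, ⟨hf, ?_⟩, ?_⟩
      · have : g - f = a := by
          simp only at hg
          rw [← hg]
          abel
        rwa [this]
      · rintro f' ⟨hf', hf'B⟩
        have h1 := huniq (g - f', f') ⟨hf'B, hf', by simp⟩
        exact congrArg Prod.snd h1
    · rintro ⟨f, ⟨hf, hfB⟩, huniq⟩
      refine ⟨(g - f, f), ⟨hfB, hf, by simp⟩, ?_⟩
      rintro ⟨a', f'⟩ ⟨ha', hf', hg⟩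
      simp only at ha' hf' hg
      have h2 : g - f' = a' := by
        rw [← hg]
        abel
      have h3 : f' = f := huniq f' ⟨hf', by rwa [h2]⟩
      subst h3
      rw [← h2]
  obtain ⟨A', hA', M, hM, hper⟩ :=
    Vale.Agent.Lib.P043.PQ.tile_mul_prime hp hq hne hF ((hconv A).1 hA)
  exact ⟨A', (hconv A').2 hA', M, hM, hper⟩
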